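import Mathlib

/-!
P124, piece T2b (helper131): a Banach space with averaging evaluations is not complemented in
any `C(K)`.  Elementary proof (no measures).
-/

namespace P124H131

open Finset

/-- choice of infinitely many nodes with prescribed parents -/
theorem exists_nodes (pa pb : ℕ → ℕ) (hinf : ∀ a b N : ℕ, ∃ j, N ≤ j ∧ pa j = a ∧ pb j = b)
    (a b : ℕ → ℕ) (N : ℕ) :
    ∃ v : ℕ → ℕ, StrictMono v ∧ ∀ i, N ≤ v i ∧ pa (v i) = a i ∧ pb (v i) = b i := by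
  choose f hf1 hf2 hf3 using hinf
  let v : ℕ → ℕ := fun k => Nat.rec (f (a 0) (b 0) N) (fun k w => f (a (k+1)) (b (k+1)) (w + 1)) k
  have hv0 : v 0 = f (a 0) (b 0) N := rfl
  have hvs : ∀ k, v (k+1) = f (a (k+1)) (b (k+1)) (v k + 1) := fun k => rfl
  have hmono : StrictMono v := by
    apply strictMono_nat_of_lt_succ
    intro k
    rw [hvs]
    exact hf1 _ _ _
  refine ⟨v, hmono, fun i => ?_⟩
  refine ⟨?_, ?_, ?_⟩
  · have h0 : N ≤ v 0 := by rw [hv0]; exact hf1 _ _ _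
    exact h0.trans (hmono.monotone (Nat.zero_le i))
  · cases i with
    | zero => rw [hv0]; exact hf2 _ _ _
    | succ k => rw [hvs]; exact hf2 _ _ _
  · cases i with
    | zero => rw [hv0]; exact hf3 _ _ _
    | succ k => rw [hvs]; exact hf3 _ _ _

section
variable {K : Type*} [TopologicalSpace K] [CompactSpace K]

/-- the duality lemma replacing total variations -/
theorem dual_lemma (lam : C(K, ℝ) →L[ℝ] ℝ) (Sg M : ℝ) (hM : 0 ≤ M)
    (hlam : ∀ w : C(K, ℝ), ‖w‖ ≤ M → lam w ≤ Sg * M) (g G : C(K, ℝ))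
    (hg : ‖g‖ ≤ 1) (hG : ‖G‖ ≤ M) :
    lam G ≤ lam (|G| * g) + M * (Sg - lam g) := by
  have hw : ‖(M • g - |G| * g + G : C(K, ℝ))‖ ≤ M := by
    rw [ContinuousMap.norm_le _ hM]
    intro x
    have h1 : |g x| ≤ 1 := (g.norm_coe_le_norm x).trans hg
    have h2 : |G x| ≤ M := (G.norm_coe_le_norm x).trans hG
    have h3 : (M • g - |G| * g + G : C(K, ℝ)) x = (M - |G x|) * g x + G x := by
      simp [ContinuousMap.abs_apply]; ring
    rw [h3, Real.norm_eq_abs]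
    calc |(M - |G x|) * g x + G x| ≤ |(M - |G x|) * g x| + |G x| := abs_add_le _ _
      _ = (M - |G x|) * |g x| + |G x| := by
          rw [abs_mul, abs_of_nonneg (sub_nonneg.2 h2)]
      _ ≤ (M - |G x|) * 1 + |G x| := by
          have := sub_nonneg.2 h2
          gcongr
      _ = M := by ring
  have h := hlam _ hw
  simp only [map_add, map_sub, map_smul, smul_eq_mul] at h
  linarith

end

section main
variable {E : Type*} [NormedAddCommGroup E] [NormedSpace ℝ E]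
variable {K : Type*} [TopologicalSpace K] [CompactSpace K]

/-- the state at level `s` with `m` nodes -/
def St (e : ℕ → E →L[ℝ] ℝ) (pa pb : ℕ → ℕ) (T : E →L[ℝ] C(K, ℝ)) (S : C(K, ℝ) →L[ℝ] E)
    (g : C(K, ℝ)) (Sg ε : ℝ) (s m : ℕ) : Prop :=
  ∃ (H : ℕ → E) (v : ℕ → ℕ) (N : ℕ), 1 ≤ N ∧
    (∀ t < s, ∀ j, N ≤ j → e j (H t) = (e (pa j) (H t) + e (pb j) (H t)) / 2) ∧
    (∀ i < m, N ≤ v i) ∧ (∀ i < m, ∀ i' < m, v i = v i' → i = i') ∧
    (∀ i < m, ∀ t < s, e (v i) (H t) = 0) ∧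
    (∀ j, ∑ t ∈ range s, |e j (H t)| ≤ 1) ∧
    (∀ i < m, ∀ t < s, 1 - ‖T‖ * ((s + 1 : ℕ) * ε) - s * ε ≤ e (v i) (S (|T (H t)| * g))) ∧
    (∀ i < m, Sg - (s + 2 : ℕ) * ε ≤ e (v i) (S g))

theorem st_zero (e : ℕ → E →L[ℝ] ℝ) (pa pb : ℕ → ℕ)
    (hinf : ∀ a b N : ℕ, ∃ j, N ≤ j ∧ pa j = a ∧ pb j = b)
    (havg : ∀ f : E, ∀ ε : ℝ, 0 < ε → ∃ N : ℕ, ∀ j, N ≤ j →
      |e j f - (e (pa j) f + e (pb j) f) / 2| ≤ ε)
    (T : E →L[ℝ] C(K, ℝ)) (S : C(K, ℝ) →L[ℝ] E)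
    (g : C(K, ℝ)) (Sg ε : ℝ) (hε : 0 < ε) (r : ℕ) (hr : Sg - ε ≤ e r (S g)) (m : ℕ) :
    St e pa pb T S g Sg ε 0 m := by
  obtain ⟨N, hN⟩ := havg (S g) ε hε
  obtain ⟨v, hv, hv2⟩ := exists_nodes pa pb hinf (fun _ => r) (fun _ => r) (max N 1)
  refine ⟨fun _ => 0, v, 1, le_refl _, ?_, ?_, ?_, ?_, ?_, ?_, ?_⟩
  · intro t ht; exact absurd ht (Nat.not_lt_zero _)
  · intro i _; exact (le_max_right _ _).trans (hv2 i).1
  · intro i _ i' _ h; exact hv.injective h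
  · intro i _ t ht; exact absurd ht (Nat.not_lt_zero _)
  · intro j; simp
  · intro i _ t ht; exact absurd ht (Nat.not_lt_zero _)
  · intro i _
    have h1 := hN (v i) ((le_max_left _ _).trans (hv2 i).1)
    rw [(hv2 i).2.1, (hv2 i).2.2] at h1
    have h2 := (abs_le.1 h1).1
    push_cast
    linarith

theorem st_succ (e : ℕ → E →L[ℝ] ℝ) (pa pb : ℕ → ℕ)
    (hpa : ∀ j, 0 < j → pa j < j) (hpb : ∀ j, 0 < j → pb j < j)
    (hinf : ∀ a b N : ℕ, ∃ j, N ≤ j ∧ pa j = a ∧ pb j = b)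
    (hn : ∀ (f : E) (C : ℝ), (∀ j, |e j f| ≤ C) → ‖f‖ ≤ C)
    (hext : ∀ (N : ℕ) (c : ℕ → ℝ), 1 ≤ N → ∃ f : E, (∀ i < N, e i f = c i) ∧
      ∀ j, N ≤ j → e j f = (e (pa j) f + e (pb j) f) / 2)
    (havg : ∀ f : E, ∀ ε : ℝ, 0 < ε → ∃ N : ℕ, ∀ j, N ≤ j →
      |e j f - (e (pa j) f + e (pb j) f) / 2| ≤ ε)
    (T : E →L[ℝ] C(K, ℝ)) (S : C(K, ℝ) →L[ℝ] E) (hST : ∀ x, S (T x) = x)
    (g : C(K, ℝ)) (hg : ‖g‖ ≤ 1) (Sg ε : ℝ) (hε : 0 < ε)
    (hSg : ∀ j (w : C(K, ℝ)), e j (S w) ≤ Sg * ‖w‖) (hSg0 : 0 ≤ Sg) (s m : ℕ)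
    (h : St e pa pb T S g Sg ε s (2 * m)) : St e pa pb T S g Sg ε (s + 1) m := by
  obtain ⟨H, v, N, hN1, hav, hvN, hinj, hz, hsum, hlow, hgl⟩ := h
  have hM : 0 ≤ ‖T‖ := ContinuousLinearMap.opNorm_nonneg T
  -- a bound for the nodes
  obtain ⟨N1, hN1a, hN1b⟩ : ∃ N1 : ℕ, N ≤ N1 ∧ ∀ i < 2 * m, v i < N1 := by
    refine ⟨max N ((range (2 * m)).sup v + 1), le_max_left _ _, fun i hi => ?_⟩
    have : v i ≤ (range (2 * m)).sup v := Finset.le_sup (f := v) (mem_range.2 hi)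
    exact lt_of_lt_of_le (Nat.lt_succ_of_le this) (le_max_right _ _)
  classical
  -- the new function
  let c : ℕ → ℝ := fun j => if hj : ∃ i, i < 2 * m ∧ v i = j then (-1) ^ (Classical.choose hj) else 0
  have hc : ∀ i < 2 * m, c (v i) = (-1) ^ i := by
    intro i hi
    have hj : ∃ i', i' < 2 * m ∧ v i' = v i := ⟨i, hi, rfl⟩
    have h1 := Classical.choose_spec hj
    have h2 : Classical.choose hj = i := hinj _ h1.1 _ hi h1.2
    simp only [c]
    rw [dif_pos hj, h2]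
  have hc0 : ∀ j, (¬ ∃ i, i < 2 * m ∧ v i = j) → c j = 0 := by
    intro j hj
    simp only [c]
    rw [dif_neg hj]
  obtain ⟨h, hh1, hh2⟩ := hext N1 c (hN1.trans hN1a)
  let H' : ℕ → E := fun t => if t < s then H t else h
  have hH'lt : ∀ t < s, H' t = H t := fun t ht => if_pos ht
  have hH's : H' s = h := if_neg (lt_irrefl s)
  have hav' : ∀ t < s + 1, ∀ j, N1 ≤ j →
      e j (H' t) = (e (pa j) (H' t) + e (pb j) (H' t)) / 2 := by
    intro t ht j hj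
    rcases Nat.lt_succ_iff_lt_or_eq.1 ht with h1 | h1
    · rw [hH'lt t h1]; exact hav t h1 j (hN1a.trans hj)
    · rw [h1, hH's]; exact hh2 j hj
  -- sum bound
  have hsum' : ∀ j, ∑ t ∈ range (s + 1), |e j (H' t)| ≤ 1 := by
    intro j
    induction j using Nat.strong_induction_on with
    | _ j ih =>
      rcases lt_or_ge j N1 with hj | hj
      · rw [sum_range_succ, hH's]
        have hcongr : ∑ t ∈ range s, |e j (H' t)| = ∑ t ∈ range s, |e j (H t)| :=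
          sum_congr rfl fun t ht => by rw [hH'lt t (mem_range.1 ht)]
        rw [hcongr, hh1 j hj]
        by_cases hnode : ∃ i, i < 2 * m ∧ v i = j
        · obtain ⟨i, hi, hij⟩ := hnode
          have h0 : ∑ t ∈ range s, |e j (H t)| = 0 := by
            apply sum_eq_zero
            intro t ht
            rw [← hij, hz i hi t (mem_range.1 ht), abs_zero]
          rw [h0, ← hij, hc i hi]
          simp
        · rw [hc0 j hnode, abs_zero, add_zero]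
          exact hsum j
      · have hj0 : 0 < j := lt_of_lt_of_le (lt_of_lt_of_le Nat.zero_lt_one (hN1.trans hN1a)) hj
        have h1 := ih (pa j) (hpa j hj0)
        have h2 := ih (pb j) (hpb j hj0)
        calc ∑ t ∈ range (s + 1), |e j (H' t)|
            ≤ ∑ t ∈ range (s + 1), (|e (pa j) (H' t)| + |e (pb j) (H' t)|) / 2 := by
              apply sum_le_sum
              intro t ht
              rw [hav' t (mem_range.1 ht) j hj, abs_div, abs_two]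
              gcongr
              exact abs_add_le _ _
          _ = (∑ t ∈ range (s + 1), |e (pa j) (H' t)| +
                ∑ t ∈ range (s + 1), |e (pb j) (H' t)|) / 2 := by
              rw [← sum_div, sum_add_distrib]
          _ ≤ 1 := by linarith
  -- the lower bound for the new function at the old nodes
  have hnormh : ‖h‖ ≤ 1 := by
    apply hn
    intro j
    have h1 := hsum' j
    rw [sum_range_succ, hH's] at h1
    have h2 : 0 ≤ ∑ t ∈ range s, |e j (H' t)| := sum_nonneg fun _ _ => abs_nonneg _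
    linarith
  have hTh : ‖T h‖ ≤ ‖T‖ := by
    calc ‖T h‖ ≤ ‖T‖ * ‖h‖ := T.le_opNorm h
      _ ≤ ‖T‖ * 1 := by gcongr
      _ = ‖T‖ := mul_one _
  have hlowh : ∀ i < 2 * m, 1 - ‖T‖ * ((s + 2 : ℕ) * ε) ≤ e (v i) (S (|T h| * g)) := by
    intro i hi
    have hval : e (v i) h = (-1) ^ i := by rw [hh1 _ (hN1b i hi), hc i hi]
    have key := dual_lemma ((e (v i)).comp S) Sg ‖T‖ hM (fun w hw => by
      calc ((e (v i)).comp S) w = e (v i) (S w) := rfl
        _ ≤ Sg * ‖w‖ := hSg _ _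
        _ ≤ Sg * ‖T‖ := by gcongr) g (((-1 : ℝ) ^ i) • T h) hg (by
          rw [norm_smul, norm_pow, norm_neg, norm_one, one_pow, one_mul]; exact hTh)
    have habs : |((-1 : ℝ) ^ i) • T h| = |T h| := by
      ext x
      simp [ContinuousMap.abs_apply, abs_mul]
    rw [habs] at key
    simp only [ContinuousLinearMap.comp_apply, map_smul, smul_eq_mul] at key
    rw [hST, hval, ← mul_pow] at key
    have h1 : ((-1 : ℝ) * -1) ^ i = 1 := by norm_num
    rw [h1] at key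
    have h2 := hgl i hi
    have h3 : ‖T‖ * (Sg - e (v i) (S g)) ≤ ‖T‖ * ((s + 2 : ℕ) * ε) := by
      gcongr
      linarith
    linarith
  -- far out
  have havgF : ∀ k, ∃ N2 : ℕ, ∀ t < k, ∀ j, N2 ≤ j →
      |e j (S (|T (H' t)| * g)) - (e (pa j) (S (|T (H' t)| * g)) +
        e (pb j) (S (|T (H' t)| * g))) / 2| ≤ ε := by
    intro k
    induction k with
    | zero => exact ⟨0, fun t ht => absurd ht (Nat.not_lt_zero _)⟩
    | succ k ih =>
      obtain ⟨N2, hN2⟩ := ih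
      obtain ⟨N3, hN3⟩ := havg (S (|T (H' k)| * g)) ε hε
      refine ⟨max N2 N3, fun t ht j hj => ?_⟩
      rcases Nat.lt_succ_iff_lt_or_eq.1 ht with h1 | h1
      · exact hN2 t h1 j ((le_max_left _ _).trans hj)
      · rw [h1]; exact hN3 j ((le_max_right _ _).trans hj)
  obtain ⟨N2, hN2⟩ := havgF (s + 1)
  obtain ⟨N3, hN3⟩ := havg (S g) ε hε
  obtain ⟨w, hw, hw2⟩ := exists_nodes pa pb hinf (fun i => v (2 * i)) (fun i => v (2 * i + 1))
    (max N1 (max N2 N3))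
  have hwN1 : ∀ i, N1 ≤ w i := fun i => (le_max_left _ _).trans (hw2 i).1
  have hwN2 : ∀ i, N2 ≤ w i := fun i =>
    ((le_max_left _ _).trans (le_max_right _ _)).trans (hw2 i).1
  have hwN3 : ∀ i, N3 ≤ w i := fun i =>
    ((le_max_right _ _).trans (le_max_right _ _)).trans (hw2 i).1
  refine ⟨H', w, N1, hN1.trans hN1a, hav', fun i _ => hwN1 i,
    fun i _ i' _ hii => hw.injective hii, ?_, hsum', ?_, ?_⟩
  · intro i hi t ht
    rw [hav' t ht _ (hwN1 i), (hw2 i).2.1, (hw2 i).2.2]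
    rcases Nat.lt_succ_iff_lt_or_eq.1 ht with h1 | h1
    · rw [hH'lt t h1, hz (2 * i) (by omega) t h1, hz (2 * i + 1) (by omega) t h1]; simp
    · rw [h1, hH's, hh1 _ (hN1b (2 * i) (by omega)), hh1 _ (hN1b (2 * i + 1) (by omega)),
        hc _ (by omega), hc _ (by omega), pow_succ, pow_mul]
      norm_num
  · intro i hi t ht
    have h1 := hN2 t ht (w i) (hwN2 i)
    rw [(hw2 i).2.1, (hw2 i).2.2] at h1
    have h2 := (abs_le.1 h1).1
    have hle : ∀ i' < 2 * m, 1 - ‖T‖ * ((s + 2 : ℕ) * ε) - s * ε ≤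
        e (v i') (S (|T (H' t)| * g)) := by
      intro i' hi'
      rcases Nat.lt_succ_iff_lt_or_eq.1 ht with h3 | h3
      · rw [hH'lt t h3]
        have h4 := hlow i' hi' t h3
        have h5 : ‖T‖ * ((s + 1 : ℕ) * ε) ≤ ‖T‖ * ((s + 2 : ℕ) * ε) := by
          gcongr
          omega
        linarith
      · rw [h3, hH's]
        have h4 := hlowh i' hi'
        have h5 : 0 ≤ (s : ℝ) * ε := by positivity
        linarith
    have h6 := hle (2 * i) (by omega)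
    have h7 := hle (2 * i + 1) (by omega)
    push_cast at h6 h7 ⊢
    have h8 : ((s : ℝ) + 1 + 1) = (s : ℝ) + 2 := by ring
    rw [h8]
    linarith
  · intro i hi
    have h1 := hN3 (w i) (hwN3 i)
    rw [(hw2 i).2.1, (hw2 i).2.2] at h1
    have h2 := (abs_le.1 h1).1
    have h3 := hgl (2 * i) (by omega)
    have h4 := hgl (2 * i + 1) (by omega)
    push_cast at h3 h4 ⊢
    linarith

theorem st_all (e : ℕ → E →L[ℝ] ℝ) (pa pb : ℕ → ℕ)
    (hpa : ∀ j, 0 < j → pa j < j) (hpb : ∀ j, 0 < j → pb j < j)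
    (hinf : ∀ a b N : ℕ, ∃ j, N ≤ j ∧ pa j = a ∧ pb j = b)
    (hn : ∀ (f : E) (C : ℝ), (∀ j, |e j f| ≤ C) → ‖f‖ ≤ C)
    (hext : ∀ (N : ℕ) (c : ℕ → ℝ), 1 ≤ N → ∃ f : E, (∀ i < N, e i f = c i) ∧
      ∀ j, N ≤ j → e j f = (e (pa j) f + e (pb j) f) / 2)
    (havg : ∀ f : E, ∀ ε : ℝ, 0 < ε → ∃ N : ℕ, ∀ j, N ≤ j →
      |e j f - (e (pa j) f + e (pb j) f) / 2| ≤ ε)
    (T : E →L[ℝ] C(K, ℝ)) (S : C(K, ℝ) →L[ℝ] E) (hST : ∀ x, S (T x) = x)
    (g : C(K, ℝ)) (hg : ‖g‖ ≤ 1) (Sg ε : ℝ) (hε : 0 < ε)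
    (hSg : ∀ j (w : C(K, ℝ)), e j (S w) ≤ Sg * ‖w‖) (hSg0 : 0 ≤ Sg)
    (r : ℕ) (hr : Sg - ε ≤ e r (S g)) (s : ℕ) :
    ∀ m, St e pa pb T S g Sg ε s m := by
  induction s with
  | zero => exact fun m => st_zero e pa pb hinf havg T S g Sg ε hε r hr m
  | succ s ih =>
    intro m
    exact st_succ e pa pb hpa hpb hinf hn hext havg T S hST g hg Sg ε hε hSg hSg0 s m
      (ih (2 * m))

/-- **T2b**: a Banach space with averaging evaluations is not complemented in any `C(K)`. -/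
theorem not_compl (e : ℕ → E →L[ℝ] ℝ) (pa pb : ℕ → ℕ)
    (hpa : ∀ j, 0 < j → pa j < j) (hpb : ∀ j, 0 < j → pb j < j)
    (hinf : ∀ a b N : ℕ, ∃ j, N ≤ j ∧ pa j = a ∧ pb j = b)
    (he : ∀ j (f : E), |e j f| ≤ ‖f‖)
    (hn : ∀ (f : E) (C : ℝ), (∀ j, |e j f| ≤ C) → ‖f‖ ≤ C)
    (hext : ∀ (N : ℕ) (c : ℕ → ℝ), 1 ≤ N → ∃ f : E, (∀ i < N, e i f = c i) ∧
      ∀ j, N ≤ j → e j f = (e (pa j) f + e (pb j) f) / 2)
    (havg : ∀ f : E, ∀ ε : ℝ, 0 < ε → ∃ N : ℕ, ∀ j, N ≤ j →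
      |e j f - (e (pa j) f + e (pb j) f) / 2| ≤ ε)
    (T : E →L[ℝ] C(K, ℝ)) (S : C(K, ℝ) →L[ℝ] E) :
    S.comp T ≠ ContinuousLinearMap.id ℝ E := by
  intro hid
  have hST : ∀ x, S (T x) = x := fun x => by
    have := congrArg (fun f : E →L[ℝ] E => f x) hid
    simpa using this
  -- the supremum of the norms
  let lam : ℕ → (C(K, ℝ) →L[ℝ] ℝ) := fun j => (e j).comp S
  have hbdd : BddAbove (Set.range fun j => ‖lam j‖) := by
    refine ⟨‖S‖, ?_⟩
    rintro _ ⟨j, rfl⟩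
    refine ContinuousLinearMap.opNorm_le_bound _ (ContinuousLinearMap.opNorm_nonneg S) fun w => ?_
    calc ‖lam j w‖ = |e j (S w)| := rfl
      _ ≤ ‖S w‖ := he _ _
      _ ≤ ‖S‖ * ‖w‖ := S.le_opNorm w
  let Sg : ℝ := ⨆ j, ‖lam j‖
  have hSgj : ∀ j, ‖lam j‖ ≤ Sg := fun j => le_ciSup hbdd j
  have hSg0 : 0 ≤ Sg := (ContinuousLinearMap.opNorm_nonneg _).trans (hSgj 0)
  have hSg : ∀ j (w : C(K, ℝ)), e j (S w) ≤ Sg * ‖w‖ := by
    intro j w
    calc e j (S w) ≤ ‖lam j w‖ := le_abs_self _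
      _ ≤ ‖lam j‖ * ‖w‖ := (lam j).le_opNorm w
      _ ≤ Sg * ‖w‖ := by gcongr; exact hSgj j
  have hM : 0 ≤ ‖T‖ := ContinuousLinearMap.opNorm_nonneg T
  -- the number of levels
  obtain ⟨n, hn'⟩ := exists_nat_gt (2 * (Sg * ‖T‖))
  let ε : ℝ := 1 / (4 * ((‖T‖ + 1) * (n + 2)))
  have hden : 0 < (‖T‖ + 1) * ((n : ℝ) + 2) := by positivity
  have hε : 0 < ε := by positivity
  have hεe : (‖T‖ + 1) * ((n : ℝ) + 2) * ε = 1 / 4 := by
    simp only [ε]; field_simp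
  -- an almost norming function
  obtain ⟨r, hr⟩ : ∃ r, Sg - ε / 2 < ‖lam r‖ := exists_lt_of_lt_ciSup (by linarith)
  obtain ⟨g, hg, hr2⟩ : ∃ g : C(K, ℝ), ‖g‖ ≤ 1 ∧ Sg - ε ≤ e r (S g) := by
    by_cases h0 : Sg - ε < 0
    · refine ⟨0, by simp, ?_⟩
      simp; linarith
    · push Not at h0
      obtain ⟨x, hx, hx2⟩ : ∃ x : C(K, ℝ), ‖x‖ < 1 ∧ Sg - ε < ‖lam r x‖ :=
        ContinuousLinearMap.exists_lt_apply_of_lt_opNorm _ (by linarith)
      rcases le_total 0 (lam r x) with h1 | h1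
      · refine ⟨x, hx.le, ?_⟩
        rw [Real.norm_of_nonneg h1] at hx2
        exact hx2.le
      · refine ⟨-x, by rw [norm_neg]; exact hx.le, ?_⟩
        rw [Real.norm_of_nonpos h1] at hx2
        have : e r (S (-x)) = - lam r x := by simp [lam]
        rw [this]; exact hx2.le
  obtain ⟨H, v, N, _, _, _, _, _, hsum, hlow, _⟩ :=
    st_all e pa pb hpa hpb hinf hn hext havg T S hST g hg Sg ε hε hSg hSg0 r hr2 n 1
  -- lower bound
  have hlow2 : ∀ t < n, 1 / 2 ≤ e (v 0) (S (|T (H t)| * g)) := by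
    intro t ht
    have h1 := hlow 0 Nat.zero_lt_one t ht
    have h2 : ‖T‖ * ((n + 1 : ℕ) * ε) + n * ε ≤ (‖T‖ + 1) * ((n : ℝ) + 2) * ε := by
      push_cast
      nlinarith [mul_nonneg hM hε.le, hε.le]
    rw [hεe] at h2
    linarith
  have hlow3 : (n : ℝ) / 2 ≤ e (v 0) (S ((∑ t ∈ range n, |T (H t)|) * g)) := by
    rw [Finset.sum_mul, map_sum, map_sum]
    calc (n : ℝ) / 2 = ∑ t ∈ range n, (1 / 2 : ℝ) := by simp; ring
      _ ≤ _ := sum_le_sum fun t ht => hlow2 t (mem_range.1 ht)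
  -- upper bound
  have hup : ‖((∑ t ∈ range n, |T (H t)|) * g : C(K, ℝ))‖ ≤ ‖T‖ := by
    rw [ContinuousMap.norm_le _ hM]
    intro x
    let sg : ℕ → ℝ := fun t => if 0 ≤ T (H t) x then 1 else -1
    have hsg : ∀ t, sg t * T (H t) x = |T (H t) x| := by
      intro t
      simp only [sg]
      split_ifs with h1
      · rw [one_mul, abs_of_nonneg h1]
      · rw [abs_of_neg (not_le.1 h1)]; ring
    have hsg1 : ∀ t, |sg t| = 1 := by
      intro t
      simp only [sg]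
      split_ifs <;> simp
    have hy : ‖∑ t ∈ range n, sg t • H t‖ ≤ 1 := by
      apply hn
      intro j
      rw [map_sum]
      calc |∑ t ∈ range n, e j (sg t • H t)| ≤ ∑ t ∈ range n, |e j (sg t • H t)| :=
            abs_sum_le_sum_abs _ _
        _ = ∑ t ∈ range n, |e j (H t)| := by
            refine sum_congr rfl fun t _ => ?_
            rw [map_smul, smul_eq_mul, abs_mul, hsg1, one_mul]
        _ ≤ 1 := hsum j
    have h1 : ‖T (∑ t ∈ range n, sg t • H t)‖ ≤ ‖T‖ := by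
      calc ‖T (∑ t ∈ range n, sg t • H t)‖ ≤ ‖T‖ * ‖∑ t ∈ range n, sg t • H t‖ := T.le_opNorm _
        _ ≤ ‖T‖ * 1 := by gcongr
        _ = ‖T‖ := mul_one _
    have h2 : |(T (∑ t ∈ range n, sg t • H t)) x| ≤ ‖T‖ :=
      (ContinuousMap.norm_coe_le_norm _ x).trans h1
    have h3 : (T (∑ t ∈ range n, sg t • H t)) x = ∑ t ∈ range n, |T (H t) x| := by
      rw [map_sum, ContinuousMap.sum_apply]
      refine sum_congr rfl fun t _ => ?_
      rw [map_smul, ContinuousMap.smul_apply, smul_eq_mul, hsg]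
    have h4 : 0 ≤ ∑ t ∈ range n, |T (H t) x| := sum_nonneg fun _ _ => abs_nonneg _
    rw [h3, abs_of_nonneg h4] at h2
    have h5 : ((∑ t ∈ range n, |T (H t)|) * g : C(K, ℝ)) x =
        (∑ t ∈ range n, |T (H t) x|) * g x := by
      rw [ContinuousMap.mul_apply, ContinuousMap.sum_apply]
      simp [ContinuousMap.abs_apply]
    have h6 : |g x| ≤ 1 := (g.norm_coe_le_norm x).trans hg
    rw [h5, Real.norm_eq_abs, abs_mul, abs_of_nonneg h4]
    calc (∑ t ∈ range n, |T (H t) x|) * |g x| ≤ (∑ t ∈ range n, |T (H t) x|) * 1 := by gcongr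
      _ ≤ ‖T‖ := by rw [mul_one]; exact h2
  have hfin := hSg (v 0) ((∑ t ∈ range n, |T (H t)|) * g)
  have : Sg * ‖((∑ t ∈ range n, |T (H t)|) * g : C(K, ℝ))‖ ≤ Sg * ‖T‖ := by gcongr
  linarith

end main

end P124H131
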